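import Vale.Agent.H53.EA.LocalEmbedding

/-!
# P196: finitely presented simple groups locally embeddable into elementary amenable groups

A finitely presented simple group `G` such that every finite subset `E` of `G` admits a map
into some elementary amenable group which is injective on `E` and preserves every product
`g * h` with `g`, `h`, `g * h` in `E`, is finite.
-/

namespace Vale.Agent.Results.P196.A_LocallyElemAmenable

universe u

theorem result (G : Type u) [Group G] [Group.IsFinitelyPresented G] [IsSimpleGroup G]
    (hloc : ∀ E : Finset G, ∃ (A : Type u) (_ : Group A) (ψ : G → A),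
      Vale.Agent.H53.IsElementaryAmenable A ∧ Set.InjOn ψ (E : Set G) ∧
        ∀ g ∈ E, ∀ h ∈ E, g * h ∈ E → ψ (g * h) = ψ g * ψ h) :
    Finite G :=
  Vale.Agent.H53.EA.finite_of_locally_embeddable G hloc

end Vale.Agent.Results.P196.A_LocallyElemAmenable
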